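import Vale.Agent.P129.NegFinal
import Vale.Agent.P129.PosMain

namespace Vale.Agent.Results.P129.AIndependence

universe u

/-- Independence of the separable quotient problem: it fails under the continuum hypothesis and
holds if Lebesgue measure extends to a countably additive measure on all subsets of the line. -/
theorem result :
    (Cardinal.continuum.{0} = Cardinal.aleph 1 →
      (∃ (X : Type) (_ : NormedAddCommGroup X) (_ : NormedSpace ℝ X) (_ : CompleteSpace X),
        ¬FiniteDimensional ℝ X ∧ ∀ M : Submodule ℝ X, IsClosed (M : Set X) →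
          TopologicalSpace.SeparableSpace (X ⧸ M) → FiniteDimensional ℝ (X ⧸ M)) ∧
      (∃ (X : Type) (_ : NormedAddCommGroup X) (_ : NormedSpace ℂ X) (_ : CompleteSpace X),
        ¬FiniteDimensional ℂ X ∧ ∀ M : Submodule ℂ X, IsClosed (M : Set X) →
          TopologicalSpace.SeparableSpace (X ⧸ M) → FiniteDimensional ℂ (X ⧸ M))) ∧
    ((∃ mu : @MeasureTheory.Measure ℝ ⊤,
        ∀ s : Set ℝ, MeasurableSet s → mu s = MeasureTheory.volume s) →
      (∀ (X : Type u) [NormedAddCommGroup X] [NormedSpace ℝ X] [CompleteSpace X],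
        ¬FiniteDimensional ℝ X → ∃ M : Submodule ℝ X, IsClosed (M : Set X) ∧
          TopologicalSpace.SeparableSpace (X ⧸ M) ∧ ¬FiniteDimensional ℝ (X ⧸ M)) ∧
      (∀ (X : Type u) [NormedAddCommGroup X] [NormedSpace ℂ X] [CompleteSpace X],
        ¬FiniteDimensional ℂ X → ∃ M : Submodule ℂ X, IsClosed (M : Set X) ∧
          TopologicalSpace.SeparableSpace (X ⧸ M) ∧ ¬FiniteDimensional ℂ (X ⧸ M))) :=
  ⟨Vale.Agent.P129N.neg, fun hmu =>
    ⟨fun X _ _ _ h => Vale.Agent.P129.pos hmu ℝ X h, fun X _ _ _ h => Vale.Agent.P129.pos hmu ℂ X h⟩⟩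

end Vale.Agent.Results.P129.AIndependence
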