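import Vale.Agent.P129.NegFinal

namespace Vale.Agent.Results.P129.CounterCH

/-- Under the continuum hypothesis there are a real and a complex infinite-dimensional Banach
space all of whose separable quotients by closed subspaces are finite-dimensional. -/
theorem result (hCH : Cardinal.continuum.{0} = Cardinal.aleph 1) :
    (∃ (X : Type) (_ : NormedAddCommGroup X) (_ : NormedSpace ℝ X) (_ : CompleteSpace X),
      ¬FiniteDimensional ℝ X ∧ ∀ M : Submodule ℝ X, IsClosed (M : Set X) →
        TopologicalSpace.SeparableSpace (X ⧸ M) → FiniteDimensional ℝ (X ⧸ M)) ∧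
    (∃ (X : Type) (_ : NormedAddCommGroup X) (_ : NormedSpace ℂ X) (_ : CompleteSpace X),
      ¬FiniteDimensional ℂ X ∧ ∀ M : Submodule ℂ X, IsClosed (M : Set X) →
        TopologicalSpace.SeparableSpace (X ⧸ M) → FiniteDimensional ℂ (X ⧸ M)) :=
  Vale.Agent.P129N.neg hCH

end Vale.Agent.Results.P129.CounterCH
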