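import Vale.Agent.P129.PosMain

namespace Vale.Agent.Results.P129.PositiveConsistent

universe u

theorem result
    (hmu : ∃ mu : @MeasureTheory.Measure ℝ ⊤,
      ∀ s : Set ℝ, MeasurableSet s → mu s = MeasureTheory.volume s)
    (K : Type) [RCLike K] (X : Type u) [NormedAddCommGroup X] [NormedSpace K X] [CompleteSpace X]
    (h : ¬ FiniteDimensional K X) :
    ∃ M : Submodule K X, IsClosed (M : Set X) ∧ TopologicalSpace.SeparableSpace (X ⧸ M) ∧
      ¬ FiniteDimensional K (X ⧸ M) :=
  Vale.Agent.P129.pos hmu K X h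

end Vale.Agent.Results.P129.PositiveConsistent
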